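import Vale.Agent.P259.Defs
import Vale.Agent.P259.Final

/-! P259: the Grothendieck homotopy hypothesis. -/

open CategoryTheory Vale.Agent.P259 Vale.Agent.P259.GlobExt

theorem Vale.Agent.Results.P259.Full.result (C : GlobExt) (hC : C.IsCoherator) :
    Nonempty C.Units ∧ (∃ Dsc : C.C ⥤ CG, IsDiscFunctor Dsc) ∧
    ∀ (Dsc : C.C ⥤ CG) (h : IsDiscFunctor Dsc) (u : C.Units),
      ∃ hW : WHE ≤ (WeakEq u).inverseImage (fundGpd Dsc h),
        (LocalizerMorphism.mk (W₁ := WHE) (W₂ := WeakEq u) (fundGpd Dsc h)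
          hW).IsLocalizedEquivalence :=
  ⟨nonempty_units hC, homotopy_hypothesis C hC⟩
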